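import Vale.Agent.P088.R2.H551.B.Spec
import Vale.Agent.P088.R2.H437.BOS
import Vale.Agent.P088.H159.USm

/-!
# P088, two arbitrary pairs, small oscillation (row JB-OS)
-/

open MeasureTheory Set Filter Topology
open scoped ContDiff Matrix

noncomputable section

namespace Vale.Agent.P088.PJ.H475

open Vale.Agent.P088.LR Vale.Agent.P088.LR.B Vale.Agent.P088.LR.U Vale.Agent.P088.LR.H158
open Vale.Agent.P088.LR.CF (bal)
open Vale.Agent.P088.LR.K (Dat Sma gA)
open Vale.Agent.P088.HY.Bd (IsoOn NrC CoG scR MetB Osc)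
open Vale.Agent.P088.PJ.Bd

theorem norm_le_of_re {l n : ℕ} {f : V n → ℂ} (hf : ContDiff ℝ ∞ f) {L : ℂ →L[ℝ] ℝ}
    (hL : ‖L‖ ≤ 1) (x : V n) : ‖iteratedFDeriv ℝ l (fun x => L (f x)) x‖ ≤
      ‖iteratedFDeriv ℝ l f x‖ := by
  have h : ‖iteratedFDeriv ℝ l (L ∘ f) x‖ ≤ ‖L‖ * ‖iteratedFDeriv ℝ l f x‖ :=
    ContinuousLinearMap.norm_iteratedFDeriv_comp_left L hf.contDiffAt (by exact_mod_cast le_top)
  have h2 : ‖L‖ * ‖iteratedFDeriv ℝ l f x‖ ≤ 1 * ‖iteratedFDeriv ℝ l f x‖ :=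
    mul_le_mul_of_nonneg_right hL (norm_nonneg _)
  rw [one_mul] at h2
  exact h.trans h2

theorem rowOS (HC : RowCC) : RowOS := by
  intro n N hn hN ρ hρ b
  have hn0 : 0 < n := by omega
  rcases le_or_gt (b 0) 0 with hb | hb
  · refine ⟨0, 1, one_pos, fun g₁ g₂ h₁ _ _ _ => ?_⟩
    exfalso
    have h2 := (h₁.2.1 0).diag_pos (i := (⟨0, hn0⟩ : Fin n))
    have h3 := h₁.2.2.1 ⟨0, hn0⟩ ⟨0, hn0⟩ 0 le_rfl 0
    rw [norm_iteratedFDeriv_zero, Real.norm_eq_abs] at h3
    have h4 := (abs_le.1 h3).2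
    linarith
  · obtain ⟨k₀, ε₀, hε₀, H⟩ := HC n N hn hN ρ hρ (b 0) hb
    obtain ⟨M, hM⟩ := HY.H437.interpG n k₀
    obtain ⟨ε, hε, HI⟩ := hM (fun l => if l = 0 then 2 * b 0 else b l) ε₀ hε₀
    obtain ⟨ε', hε', HI'⟩ := hM b (ε₀ / 2) (half_pos hε₀)
    have key : ∀ g : MF n, MetB M b g → Osc ε g → CoG (b 0) (g 0) ∧ NrC k₀ ε₀ (g 0) g := by
      intro g hg ho
      have h0 : ∀ i j x, |g x i j| ≤ b 0 := by
        intro i j x
        have h3 := hg.2.2.1 i j 0 (Nat.zero_le _) x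
        rwa [norm_iteratedFDeriv_zero, Real.norm_eq_abs] at h3
      refine ⟨⟨hg.2.1 0, fun i j => h0 i j 0, hg.2.2.2 0⟩, fun i j => ?_⟩
      refine HI _ ((hg.1 i j).sub contDiff_const) (fun x => ho i j x 0) (fun l hl x => ?_)
      rcases Nat.eq_zero_or_pos l with h | h
      · subst h
        rw [if_pos rfl, norm_iteratedFDeriv_zero, Real.norm_eq_abs]
        have h1 := abs_le.1 (h0 i j x)
        have h2 := abs_le.1 (h0 i j 0)
        rw [abs_le]
        constructor <;> linarith [h1.1, h1.2, h2.1, h2.2]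
      · rw [if_neg h.ne']
        have h1 : iteratedFDeriv ℝ l (fun x => g x i j - g 0 i j) x
            = iteratedFDeriv ℝ l (fun x => g x i j) x := by
          have h2 := iteratedFDeriv_sub_apply (𝕜 := ℝ) (i := l) (f := fun x => g x i j)
            (g := fun _ : V n => g 0 i j) (x := x)
            (((hg.1 i j).of_le (by exact_mod_cast le_top)).contDiffAt) contDiff_const.contDiffAt
          rw [iteratedFDeriv_const_of_ne h.ne'] at h2
          simp only [Pi.zero_apply, sub_zero] at h2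
          exact h2
        rw [h1]
        exact hg.2.2.1 i j l hl x
    have keyA : ∀ A : Cn n N, ConB M b A → C0 univ ε' A → ∀ i, ClC k₀ ε₀ (A i) := by
      intro A hA h0 i α β
      have hs : ContDiff ℝ ∞ fun x => A i x α β := hA.1.1 i α β
      have hre : Cl k₀ (ε₀ / 2) (fun x => (A i x α β).re) := by
        refine HI' _ (Vale.Agent.P088.H159.sm_re hs) (fun x => ?_) (fun l hl x => ?_)
        · exact (Complex.abs_re_le_norm _).trans (h0 x (mem_univ _) i α β)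
        · exact (norm_le_of_re hs (L := Complex.reCLM) (by rw [Complex.reCLM_norm]) x).trans
            (hA.2 i α β l hl x)
      have him : Cl k₀ (ε₀ / 2) (fun x => (A i x α β).im) := by
        refine HI' _ (Vale.Agent.P088.H159.sm_im hs) (fun x => ?_) (fun l hl x => ?_)
        · exact (Complex.abs_im_le_norm _).trans (h0 x (mem_univ _) i α β)
        · exact (norm_le_of_re hs (L := Complex.imCLM) (by rw [Complex.imCLM_norm]) x).trans
            (hA.2 i α β l hl x)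
      have h := Vale.Agent.P088.H159.cl_parts hs hre him
      rwa [add_halves] at h
    refine ⟨M, min ε ε', lt_min hε hε', fun g₁ g₂ h₁ h₂ o₁ o₂ A₁ A₂ c₁ c₂ z₁ z₂ => ?_⟩
    have oo : ∀ g : MF n, Osc (min ε ε') g → Osc ε g := fun g h i j x y =>
      (h i j x y).trans (min_le_left _ _)
    have zz : ∀ A : Cn n N, C0 univ (min ε ε') A → C0 univ ε' A := fun A h x hx i α β =>
      (h x hx i α β).trans (min_le_right _ _)
    exact H (g₁ 0) (g₂ 0) (key g₁ h₁ (oo _ o₁)).1 (key g₂ h₂ (oo _ o₂)).1 g₁ g₂ h₁.1 h₂.1 h₁.2.1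
      h₂.2.1 (key g₁ h₁ (oo _ o₁)).2 (key g₂ h₂ (oo _ o₂)).2 A₁ A₂ c₁.1 c₂.1
      (keyA A₁ c₁ (zz _ z₁)) (keyA A₂ c₂ (zz _ z₂))

end Vale.Agent.P088.PJ.H475
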